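import Vale.Agent.Lib.Helper4.Bang.Planar
import Vale.Agent.Lib.P243.Slices
import Vale.Agent.Lib.P243.Tent

namespace Vale.Agent.Lib.Helper4.Bang

open MeasureTheory Set
open scoped ENNReal
open Vale.Agent.Lib.P243

/-- the pointwise inequality on one slice -/
lemma slice_ineq (K : Set (ℝ × ℝ × ℝ)) (hconv : Convex ℝ K)
    (B₁ B₂ : Set (ℝ × ℝ)) (hB₁ : MeasurableSet B₁) (hB₂ : MeasurableSet B₂)
    (hcover : ∀ p ∈ K, (p.1, p.2.1) ∈ B₁ ∨ (p.1, p.2.2) ∈ B₂)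
    (Ω₁ Ω₂ : Set (ℝ × ℝ)) (hΩ₁ : Ω₁ = (fun p : ℝ × ℝ × ℝ => (p.1, p.2.1)) '' K)
    (hΩ₂ : Ω₂ = (fun p : ℝ × ℝ × ℝ => (p.1, p.2.2)) '' K)
    (hc₁ : Convex ℝ Ω₁) (hk₁ : IsCompact Ω₁) (hc₂ : Convex ℝ Ω₂) (hk₂ : IsCompact Ω₂)
    (z : ℝ) (hz₁ : z ∈ Prod.fst '' Ω₁) (hz₂ : z ∈ Prod.fst '' Ω₂) :
    ENNReal.ofReal (width Ω₁ z) * ENNReal.ofReal (width Ω₂ z)
      ≤ volume (Prod.mk z ⁻¹' (B₁ ∩ Ω₁)) * ENNReal.ofReal (width Ω₂ z)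
        + volume (Prod.mk z ⁻¹' (B₂ ∩ Ω₂)) * ENNReal.ofReal (width Ω₁ z) := by
  have e₁ := vslice_eq_Icc hc₁ hk₁ hz₁
  have e₂ := vslice_eq_Icc hc₂ hk₂ hz₂
  have w₁ := width_nonneg hc₁ hk₁ hz₁
  have w₂ := width_nonneg hc₂ hk₂ hz₂
  have hw₁ : width Ω₁ z = sSup (vslice Ω₁ z) - sInf (vslice Ω₁ z) := rfl
  have hw₂ : width Ω₂ z = sSup (vslice Ω₂ z) - sInf (vslice Ω₂ z) := rfl
  generalize sInf (vslice Ω₁ z) = l₁ at e₁ hw₁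
  generalize sSup (vslice Ω₁ z) = r₁ at e₁ hw₁
  generalize sInf (vslice Ω₂ z) = l₂ at e₂ hw₂
  generalize sSup (vslice Ω₂ z) = r₂ at e₂ hw₂
  have h₁ : l₁ ≤ r₁ := by linarith
  have h₂ : l₂ ≤ r₂ := by linarith
  have mem₁ : ∀ x, x ∈ Icc l₁ r₁ ↔ ∃ y, (z, x, y) ∈ K := by
    intro x
    rw [← e₁]
    show (z, x) ∈ Ω₁ ↔ _
    rw [hΩ₁]
    constructor
    · rintro ⟨⟨p1, p2, p3⟩, hp, hpe⟩
      simp only [Prod.mk.injEq] at hpe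
      obtain ⟨rfl, rfl⟩ := hpe
      exact ⟨p3, hp⟩
    · rintro ⟨y, hy⟩
      exact ⟨(z, x, y), hy, rfl⟩
  have mem₂ : ∀ y, y ∈ Icc l₂ r₂ ↔ ∃ x, (z, x, y) ∈ K := by
    intro y
    rw [← e₂]
    show (z, y) ∈ Ω₂ ↔ _
    rw [hΩ₂]
    constructor
    · rintro ⟨⟨p1, p2, p3⟩, hp, hpe⟩
      simp only [Prod.mk.injEq] at hpe
      obtain ⟨rfl, rfl⟩ := hpe
      exact ⟨p2, hp⟩
    · rintro ⟨x, hx⟩
      exact ⟨(z, x, y), hx, rfl⟩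
  obtain ⟨c, hL⟩ := (mem₁ l₁).mp (left_mem_Icc.mpr h₁)
  obtain ⟨d, hR⟩ := (mem₁ r₁).mp (right_mem_Icc.mpr h₁)
  obtain ⟨a, hD⟩ := (mem₂ l₂).mp (left_mem_Icc.mpr h₂)
  obtain ⟨b, hT⟩ := (mem₂ r₂).mp (right_mem_Icc.mpr h₂)
  have hc : c ∈ Icc l₂ r₂ := (mem₂ c).mpr ⟨l₁, hL⟩
  have hd : d ∈ Icc l₂ r₂ := (mem₂ d).mpr ⟨r₁, hR⟩
  have ha : a ∈ Icc l₁ r₁ := (mem₁ a).mpr ⟨l₂, hD⟩
  have hb : b ∈ Icc l₁ r₁ := (mem₁ b).mpr ⟨r₂, hT⟩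
  have hSconv : Convex ℝ {q : ℝ × ℝ | (z, q) ∈ K} := by
    intro p hp q hq s t hs ht hst
    have := hconv hp hq hs ht hst
    show (z, s • p + t • q) ∈ K
    convert this using 1
    have hs' : s = 1 - t := by linarith
    subst hs'
    ext
    · simp only [Prod.fst_add, Prod.smul_fst, smul_eq_mul]
      ring
    · simp
    · simp
  have key := planar_box {q : ℝ × ℝ | (z, q) ∈ K} hSconv (Prod.mk z ⁻¹' B₁) (Prod.mk z ⁻¹' B₂)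
    (measurable_prodMk_left hB₁) (measurable_prodMk_left hB₂)
    (fun q hq => hcover (z, q) hq) l₁ r₁ l₂ r₂ a b c d h₁ h₂ ha hb hc hd hL hD hR hT
  have v₁ : Prod.mk z ⁻¹' (B₁ ∩ Ω₁) = Prod.mk z ⁻¹' B₁ ∩ Icc l₁ r₁ := by
    rw [preimage_inter, ← e₁]
    rfl
  have v₂ : Prod.mk z ⁻¹' (B₂ ∩ Ω₂) = Prod.mk z ⁻¹' B₂ ∩ Icc l₂ r₂ := by
    rw [preimage_inter, ← e₂]
    rfl
  have f₁ : volume (Prod.mk z ⁻¹' B₁ ∩ Icc l₁ r₁)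
      = ENNReal.ofReal (mu (Prod.mk z ⁻¹' B₁ ∩ Icc l₁ r₁)) := by
    unfold mu
    rw [ENNReal.ofReal_toReal (volume_inter_Icc_ne_top _ _ _)]
  have f₂ : volume (Prod.mk z ⁻¹' B₂ ∩ Icc l₂ r₂)
      = ENNReal.ofReal (mu (Prod.mk z ⁻¹' B₂ ∩ Icc l₂ r₂)) := by
    unfold mu
    rw [ENNReal.ofReal_toReal (volume_inter_Icc_ne_top _ _ _)]
  rw [v₁, v₂, hw₁, hw₂, f₁, f₂, ← ENNReal.ofReal_mul (by linarith),
    ← ENNReal.ofReal_mul (mu_nonneg _), ← ENNReal.ofReal_mul (mu_nonneg _),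
    ← ENNReal.ofReal_add (mul_nonneg (mu_nonneg _) (by linarith))
      (mul_nonneg (mu_nonneg _) (by linarith))]
  exact ENNReal.ofReal_le_ofReal key

/-- the two-cylinder theorem in coordinates -/
theorem core (K : Set (ℝ × ℝ × ℝ)) (hconv : Convex ℝ K) (hcomp : IsCompact K)
    (B₁ B₂ : Set (ℝ × ℝ)) (hB₁ : MeasurableSet B₁) (hB₂ : MeasurableSet B₂)
    (hcover : ∀ p ∈ K, (p.1, p.2.1) ∈ B₁ ∨ (p.1, p.2.2) ∈ B₂)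
    (h₁ : 0 < volume ((fun p : ℝ × ℝ × ℝ => (p.1, p.2.1)) '' K))
    (h₂ : 0 < volume ((fun p : ℝ × ℝ × ℝ => (p.1, p.2.2)) '' K)) :
    (1 / 2 : ℝ≥0∞) ≤ volume B₁ / volume ((fun p : ℝ × ℝ × ℝ => (p.1, p.2.1)) '' K)
      + volume B₂ / volume ((fun p : ℝ × ℝ × ℝ => (p.1, p.2.2)) '' K) := by
  have hc₁ : Convex ℝ ((fun p : ℝ × ℝ × ℝ => (p.1, p.2.1)) '' K) :=
    hconv.is_linear_image ⟨fun _ _ => rfl, fun _ _ => rfl⟩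
  have hc₂ : Convex ℝ ((fun p : ℝ × ℝ × ℝ => (p.1, p.2.2)) '' K) :=
    hconv.is_linear_image ⟨fun _ _ => rfl, fun _ _ => rfl⟩
  have hk₁ : IsCompact ((fun p : ℝ × ℝ × ℝ => (p.1, p.2.1)) '' K) :=
    hcomp.image (by fun_prop)
  have hk₂ : IsCompact ((fun p : ℝ × ℝ × ℝ => (p.1, p.2.2)) '' K) :=
    hcomp.image (by fun_prop)
  have hZ₁ : Prod.fst '' ((fun p : ℝ × ℝ × ℝ => (p.1, p.2.1)) '' K) = Prod.fst '' K := by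
    rw [image_image]
  have hZ₂ : Prod.fst '' ((fun p : ℝ × ℝ × ℝ => (p.1, p.2.2)) '' K) = Prod.fst '' K := by
    rw [image_image]
  generalize hΩ₁ : (fun p : ℝ × ℝ × ℝ => (p.1, p.2.1)) '' K = Ω₁ at *
  generalize hΩ₂ : (fun p : ℝ × ℝ × ℝ => (p.1, p.2.2)) '' K = Ω₂ at *
  have hn₁ : Ω₁.Nonempty := nonempty_of_measure_ne_zero h₁.ne'
  have hn₂ : Ω₂.Nonempty := nonempty_of_measure_ne_zero h₂.ne'
  have hI₁ := fst_image_eq_Icc hc₁ hk₁ hn₁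
  have hA₁ := volume_eq_lintegral_width hc₁ hk₁ hn₁
  have hA₂ := volume_eq_lintegral_width hc₂ hk₂ hn₂
  have cc₁ := width_concave hc₁ hk₁
  have cc₂ := width_concave hc₂ hk₂
  rw [hZ₁] at hI₁ hA₁ cc₁
  rw [hZ₂] at hA₂ cc₂
  generalize sInf (Prod.fst '' K) = z₀ at *
  generalize sSup (Prod.fst '' K) = z₁ at *
  rw [hI₁] at cc₁ cc₂
  have h01 : z₀ < z₁ := by
    by_contra hcon
    have h0 : volume (Icc z₀ z₁) = 0 := by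
      rw [Real.volume_Icc, ENNReal.ofReal_eq_zero]
      linarith [not_lt.mp hcon]
    rw [hA₁, Measure.restrict_eq_zero.mpr h0, lintegral_zero_measure] at h₁
    exact lt_irrefl _ h₁
  have nn₁ : ∀ t ∈ Icc z₀ z₁, 0 ≤ width Ω₁ t := by
    intro t ht
    apply width_nonneg hc₁ hk₁
    rw [hZ₁, hI₁]
    exact ht
  have nn₂ : ∀ t ∈ Icc z₀ z₁, 0 ≤ width Ω₂ t := by
    intro t ht
    apply width_nonneg hc₂ hk₂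
    rw [hZ₂, hI₁]
    exact ht
  have mΩ₁ : MeasurableSet (B₁ ∩ Ω₁) := hB₁.inter hk₁.measurableSet
  have mΩ₂ : MeasurableSet (B₂ ∩ Ω₂) := hB₂.inter hk₂.measurableSet
  have mb₁ : Measurable (fun z : ℝ => volume (Prod.mk z ⁻¹' (B₁ ∩ Ω₁))) :=
    measurable_measure_prodMk_left mΩ₁
  have mb₂ : Measurable (fun z : ℝ => volume (Prod.mk z ⁻¹' (B₂ ∩ Ω₂))) :=
    measurable_measure_prodMk_left mΩ₂
  have ib₁ : ∫⁻ z in Icc z₀ z₁, volume (Prod.mk z ⁻¹' (B₁ ∩ Ω₁)) ≤ volume B₁ := by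
    calc ∫⁻ z in Icc z₀ z₁, volume (Prod.mk z ⁻¹' (B₁ ∩ Ω₁))
        ≤ ∫⁻ z, volume (Prod.mk z ⁻¹' (B₁ ∩ Ω₁)) := setLIntegral_le_lintegral _ _
      _ = volume (B₁ ∩ Ω₁) := by
        rw [Measure.volume_eq_prod, Measure.prod_apply mΩ₁]
      _ ≤ volume B₁ := measure_mono inter_subset_left
  have ib₂ : ∫⁻ z in Icc z₀ z₁, volume (Prod.mk z ⁻¹' (B₂ ∩ Ω₂)) ≤ volume B₂ := by
    calc ∫⁻ z in Icc z₀ z₁, volume (Prod.mk z ⁻¹' (B₂ ∩ Ω₂))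
        ≤ ∫⁻ z, volume (Prod.mk z ⁻¹' (B₂ ∩ Ω₂)) := setLIntegral_le_lintegral _ _
      _ = volume (B₂ ∩ Ω₂) := by
        rw [Measure.volume_eq_prod, Measure.prod_apply mΩ₂]
      _ ≤ volume B₂ := measure_mono inter_subset_left
  have hE : ∀ z ∈ Icc z₀ z₁, ENNReal.ofReal (width Ω₁ z) * ENNReal.ofReal (width Ω₂ z)
      ≤ volume (Prod.mk z ⁻¹' (B₁ ∩ Ω₁)) * ENNReal.ofReal (width Ω₂ z)
        + volume (Prod.mk z ⁻¹' (B₂ ∩ Ω₂)) * ENNReal.ofReal (width Ω₁ z) := by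
    intro z hz
    refine slice_ineq K hconv B₁ B₂ hB₁ hB₂ hcover Ω₁ Ω₂ hΩ₁.symm hΩ₂.symm hc₁ hk₁ hc₂ hk₂ z ?_ ?_
    · rw [hZ₁, hI₁]; exact hz
    · rw [hZ₂, hI₁]; exact hz
  have fin₁ : volume Ω₁ ≠ ⊤ := hk₁.measure_lt_top.ne
  have fin₂ : volume Ω₂ ≠ ⊤ := hk₂.measure_lt_top.ne
  have key := two_density h01 cc₁ cc₂ nn₁ nn₂ mb₁ mb₂ hE (hA₁ ▸ h₁) (hA₂ ▸ h₂)
    (hA₁ ▸ fin₁) (hA₂ ▸ fin₂)
  rw [← hA₁, ← hA₂] at key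
  exact le_trans key (add_le_add (ENNReal.div_le_div_right ib₁ _) (ENNReal.div_le_div_right ib₂ _))

end Vale.Agent.Lib.Helper4.Bang
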