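import Mathlib

namespace Vale.Agent.Lib.Helper4.Bang

/-- The standard dot product of two vectors of three-space. -/
def dot (u x : ℝ × ℝ × ℝ) : ℝ := u.1 * x.1 + u.2.1 * x.2.1 + u.2.2 * x.2.2

/-- The two coordinates `(e · x, f · x)` of the orthogonal projection of `x` to the plane
spanned by an orthonormal pair `e`, `f`. -/
def coords (e f x : ℝ × ℝ × ℝ) : ℝ × ℝ := (dot e x, dot f x)

end Vale.Agent.Lib.Helper4.Bang
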