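import Vale.Agent.Lib.Helper4.Bang.Core
import Vale.Agent.Lib.Helper4.Bang.Defs

namespace Vale.Agent.Lib.Helper4.Bang

open MeasureTheory Set
open scoped ENNReal

/-- a planar rotation as a linear map -/
noncomputable def rotL (α β : ℝ) : (ℝ × ℝ) →ₗ[ℝ] (ℝ × ℝ) :=
  Matrix.toLin (Module.Basis.finTwoProd ℝ) (Module.Basis.finTwoProd ℝ) !![α, β; -β, α]

lemma rotL_apply (α β : ℝ) (p : ℝ × ℝ) :
    rotL α β p = (α * p.1 + β * p.2, -β * p.1 + α * p.2) := by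
  simp [rotL, Matrix.toLin_apply, Matrix.mulVec, dotProduct, Fin.sum_univ_two]

lemma det_rotL (α β : ℝ) : LinearMap.det (rotL α β) = α ^ 2 + β ^ 2 := by
  rw [rotL, LinearMap.det_toLin, Matrix.det_fin_two_of]
  ring

/-- planar Lebesgue measure is invariant under rotations -/
lemma rot_volume (α β : ℝ) (h : α ^ 2 + β ^ 2 = 1) (S : Set (ℝ × ℝ)) :
    volume ((fun p : ℝ × ℝ => (α * p.1 + β * p.2, -β * p.1 + α * p.2)) '' S) = volume S := by
  have h1 : (fun p : ℝ × ℝ => (α * p.1 + β * p.2, -β * p.1 + α * p.2)) = rotL α β := by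
    funext p
    rw [rotL_apply]
  rw [h1, Measure.addHaar_image_linearMap, det_rotL, h]
  simp

lemma dot_comb_left (a b : ℝ) (e f x : ℝ × ℝ × ℝ) :
    dot (a • e + b • f) x = a * dot e x + b * dot f x := by
  simp only [dot, Prod.fst_add, Prod.snd_add, Prod.smul_fst, Prod.smul_snd, smul_eq_mul]
  ring

lemma dot_comb_right (a b : ℝ) (e f x : ℝ × ℝ × ℝ) :
    dot x (a • e + b • f) = a * dot x e + b * dot x f := by
  simp only [dot, Prod.fst_add, Prod.snd_add, Prod.smul_fst, Prod.smul_snd, smul_eq_mul]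
  ring

lemma dot_comm (x y : ℝ × ℝ × ℝ) : dot x y = dot y x := by
  simp only [dot]
  ring

/-- two planes through the origin of three-space share a unit vector -/
lemma exists_common (e₁ f₁ e₂ f₂ : ℝ × ℝ × ℝ)
    (h₁ : dot e₁ e₁ = 1 ∧ dot f₁ f₁ = 1 ∧ dot e₁ f₁ = 0)
    (h₂ : dot e₂ e₂ = 1 ∧ dot f₂ f₂ = 1 ∧ dot e₂ f₂ = 0) :
    ∃ α₁ β₁ α₂ β₂ : ℝ, α₁ ^ 2 + β₁ ^ 2 = 1 ∧ α₂ ^ 2 + β₂ ^ 2 = 1 ∧
      α₁ • e₁ + β₁ • f₁ = α₂ • e₂ + β₂ • f₂ := by
  obtain ⟨h11, h12, h13⟩ := h₁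
  obtain ⟨h21, h22, h23⟩ := h₂
  have hdep : ¬ LinearIndependent ℝ ![e₁, f₁, e₂, f₂] := by
    intro hli
    have := hli.fintype_card_le_finrank
    simp at this
  rw [Fintype.not_linearIndependent_iff] at hdep
  obtain ⟨g, hg, i, hi⟩ := hdep
  rw [Fin.sum_univ_four] at hg
  simp only [Matrix.cons_val_zero, Matrix.cons_val_one, Matrix.cons_val_two,
    Matrix.cons_val_three, Matrix.head_cons, Matrix.tail_cons] at hg
  have hw : g 0 • e₁ + g 1 • f₁ = (-g 2) • e₂ + (-g 3) • f₂ := by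
    have : g 0 • e₁ + g 1 • f₁ = -(g 2 • e₂ + g 3 • f₂) := by
      rw [eq_neg_iff_add_eq_zero]
      rw [← hg]
      abel
    rw [this]
    simp only [neg_smul]
    abel
  have n1 : dot (g 0 • e₁ + g 1 • f₁) (g 0 • e₁ + g 1 • f₁) = g 0 ^ 2 + g 1 ^ 2 := by
    rw [dot_comb_left, dot_comb_right, dot_comb_right, h11, h12, h13, dot_comm f₁ e₁, h13]
    ring
  have n2 : dot ((-g 2) • e₂ + (-g 3) • f₂) ((-g 2) • e₂ + (-g 3) • f₂) = g 2 ^ 2 + g 3 ^ 2 := by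
    rw [dot_comb_left, dot_comb_right, dot_comb_right, h21, h22, h23, dot_comm f₂ e₂, h23]
    ring
  have heq : g 0 ^ 2 + g 1 ^ 2 = g 2 ^ 2 + g 3 ^ 2 := by
    rw [← n1, ← n2, hw]
  have hpos : 0 < g 0 ^ 2 + g 1 ^ 2 := by
    by_contra hcon
    have h0 : g 0 ^ 2 + g 1 ^ 2 = 0 := le_antisymm (not_lt.mp hcon) (by positivity)
    have h0' : g 2 ^ 2 + g 3 ^ 2 = 0 := by rw [← heq]; exact h0
    have g0 : g 0 = 0 := by nlinarith [sq_nonneg (g 0), sq_nonneg (g 1)]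
    have g1 : g 1 = 0 := by nlinarith [sq_nonneg (g 0), sq_nonneg (g 1)]
    have g2 : g 2 = 0 := by nlinarith [sq_nonneg (g 2), sq_nonneg (g 3)]
    have g3 : g 3 = 0 := by nlinarith [sq_nonneg (g 2), sq_nonneg (g 3)]
    fin_cases i
    · exact hi g0
    · exact hi g1
    · exact hi g2
    · exact hi g3
  set r := Real.sqrt (g 0 ^ 2 + g 1 ^ 2) with hr
  have hr0 : 0 < r := Real.sqrt_pos.mpr hpos
  have hr2 : r ^ 2 = g 0 ^ 2 + g 1 ^ 2 := Real.sq_sqrt hpos.le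
  refine ⟨g 0 / r, g 1 / r, -g 2 / r, -g 3 / r, ?_, ?_, ?_⟩
  · field_simp
    linarith
  · field_simp
    linarith
  · have e1 : (g 0 / r) • e₁ + (g 1 / r) • f₁ = r⁻¹ • (g 0 • e₁ + g 1 • f₁) := by
      rw [smul_add, smul_smul, smul_smul, div_eq_inv_mul, div_eq_inv_mul]
    have e2 : (-g 2 / r) • e₂ + (-g 3 / r) • f₂ = r⁻¹ • ((-g 2) • e₂ + (-g 3) • f₂) := by
      rw [smul_add, smul_smul, smul_smul, div_eq_inv_mul, div_eq_inv_mul]
    rw [e1, e2, hw]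

lemma coords_isOpenMap (e f : ℝ × ℝ × ℝ)
    (h : dot e e = 1 ∧ dot f f = 1 ∧ dot e f = 0) : IsOpenMap (coords e f) := by
  obtain ⟨h1, h2, h3⟩ := h
  have hlin : IsLinearMap ℝ (coords e f) := by
    constructor
    · intro x y
      simp only [coords, dot, Prod.fst_add, Prod.snd_add, Prod.mk_add_mk, Prod.mk.injEq]
      constructor <;> ring
    · intro c x
      simp only [coords, dot, Prod.smul_fst, Prod.smul_snd, smul_eq_mul, Prod.smul_mk,
        Prod.mk.injEq]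
      constructor <;> ring
  have hsurj : Function.Surjective (coords e f) := by
    rintro ⟨s, t⟩
    refine ⟨s • e + t • f, ?_⟩
    simp only [coords]
    rw [dot_comb_right, dot_comb_right, h1, h2, h3, dot_comm f e, h3]
    simp
  have := (LinearMap.toContinuousLinearMap hlin.mk').isOpenMap hsurj
  exact this

/-- The two-cylinder theorem for arbitrary orthonormal frames of the two base planes. -/
theorem frame (K : Set (ℝ × ℝ × ℝ)) (hconv : Convex ℝ K) (hcomp : IsCompact K)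
    (hint : (interior K).Nonempty) (e₁ f₁ e₂ f₂ : ℝ × ℝ × ℝ)
    (h₁ : dot e₁ e₁ = 1 ∧ dot f₁ f₁ = 1 ∧ dot e₁ f₁ = 0)
    (h₂ : dot e₂ e₂ = 1 ∧ dot f₂ f₂ = 1 ∧ dot e₂ f₂ = 0)
    (B₁ B₂ : Set (ℝ × ℝ))
    (hcover : ∀ x ∈ K, coords e₁ f₁ x ∈ B₁ ∨ coords e₂ f₂ x ∈ B₂) :
    (1 / 2 : ℝ≥0∞) ≤ volume B₁ / volume (coords e₁ f₁ '' K)
      + volume B₂ / volume (coords e₂ f₂ '' K) := by
  obtain ⟨α₁, β₁, α₂, β₂, hn₁, hn₂, hv⟩ := exists_common e₁ f₁ e₂ f₂ h₁ h₂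
  have pos : ∀ f : ℝ × ℝ × ℝ → ℝ × ℝ, IsOpenMap f → 0 < volume (f '' K) := by
    intro f hf
    have hopen : IsOpen (f '' interior K) := hf _ isOpen_interior
    exact lt_of_lt_of_le (hopen.measure_pos volume (hint.image f))
      (measure_mono (image_mono interior_subset))
  have p₁ := pos _ (coords_isOpenMap e₁ f₁ h₁)
  have p₂ := pos _ (coords_isOpenMap e₂ f₂ h₂)
  set Φ : ℝ × ℝ × ℝ → ℝ × ℝ × ℝ := fun x =>
    (dot (α₁ • e₁ + β₁ • f₁) x, dot ((-β₁) • e₁ + α₁ • f₁) x, dot ((-β₂) • e₂ + α₂ • f₂) x)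
    with hΦ
  have hΦlin : IsLinearMap ℝ Φ := by
    constructor
    · intro x y
      simp only [hΦ, dot, Prod.fst_add, Prod.snd_add, Prod.mk_add_mk, Prod.mk.injEq]
      refine ⟨by ring, by ring, by ring⟩
    · intro c x
      simp only [hΦ, dot, Prod.smul_fst, Prod.smul_snd, smul_eq_mul, Prod.smul_mk,
        Prod.mk.injEq]
      refine ⟨by ring, by ring, by ring⟩
  have hΦcont : Continuous Φ := (LinearMap.toContinuousLinearMap hΦlin.mk').continuous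
  have r₁ : ∀ x, ((Φ x).1, (Φ x).2.1)
      = (fun p : ℝ × ℝ => (α₁ * p.1 + β₁ * p.2, -β₁ * p.1 + α₁ * p.2)) (coords e₁ f₁ x) := by
    intro x
    simp only [hΦ, coords, dot_comb_left]
  have r₂ : ∀ x, ((Φ x).1, (Φ x).2.2)
      = (fun p : ℝ × ℝ => (α₂ * p.1 + β₂ * p.2, -β₂ * p.1 + α₂ * p.2)) (coords e₂ f₂ x) := by
    intro x
    simp only [hΦ, coords]
    rw [hv]
    simp only [dot_comb_left]
  have im₁ : (fun p : ℝ × ℝ × ℝ => (p.1, p.2.1)) '' (Φ '' K)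
      = (fun p : ℝ × ℝ => (α₁ * p.1 + β₁ * p.2, -β₁ * p.1 + α₁ * p.2)) '' (coords e₁ f₁ '' K) := by
    rw [image_image, image_image]
    exact image_congr (fun x _ => r₁ x)
  have im₂ : (fun p : ℝ × ℝ × ℝ => (p.1, p.2.2)) '' (Φ '' K)
      = (fun p : ℝ × ℝ => (α₂ * p.1 + β₂ * p.2, -β₂ * p.1 + α₂ * p.2)) '' (coords e₂ f₂ '' K) := by
    rw [image_image, image_image]
    exact image_congr (fun x _ => r₂ x)
  have v₁ : volume ((fun p : ℝ × ℝ × ℝ => (p.1, p.2.1)) '' (Φ '' K))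
      = volume (coords e₁ f₁ '' K) := by rw [im₁, rot_volume α₁ β₁ hn₁]
  have v₂ : volume ((fun p : ℝ × ℝ × ℝ => (p.1, p.2.2)) '' (Φ '' K))
      = volume (coords e₂ f₂ '' K) := by rw [im₂, rot_volume α₂ β₂ hn₂]
  have key := core (Φ '' K) (hconv.is_linear_image hΦlin) (hcomp.image hΦcont)
    (toMeasurable volume
      ((fun p : ℝ × ℝ => (α₁ * p.1 + β₁ * p.2, -β₁ * p.1 + α₁ * p.2)) '' B₁))
    (toMeasurable volume
      ((fun p : ℝ × ℝ => (α₂ * p.1 + β₂ * p.2, -β₂ * p.1 + α₂ * p.2)) '' B₂))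
    (measurableSet_toMeasurable _ _) (measurableSet_toMeasurable _ _)
    (by
      rintro p ⟨x, hx, rfl⟩
      rcases hcover x hx with h | h
      · left
        apply subset_toMeasurable
        rw [r₁ x]
        exact mem_image_of_mem _ h
      · right
        apply subset_toMeasurable
        rw [r₂ x]
        exact mem_image_of_mem _ h)
    (by rw [v₁]; exact p₁) (by rw [v₂]; exact p₂)
  rw [v₁, v₂, measure_toMeasurable, measure_toMeasurable, rot_volume α₁ β₁ hn₁,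
    rot_volume α₂ β₂ hn₂] at key
  exact key

end Vale.Agent.Lib.Helper4.Bang
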