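import Mathlib

namespace Vale.Agent.Lib.Helper4.Bang

open MeasureTheory Set

/-- real-valued Lebesgue measure of a set of reals -/
noncomputable def mu (S : Set ℝ) : ℝ := (volume S).toReal

lemma mu_nonneg (S : Set ℝ) : 0 ≤ mu S := ENNReal.toReal_nonneg

lemma volume_inter_Icc_ne_top (F : Set ℝ) (p q : ℝ) : volume (F ∩ Icc p q) ≠ ⊤ :=
  ne_top_of_le_ne_top (by simp) (measure_mono (inter_subset_right : F ∩ Icc p q ⊆ Icc p q))

lemma volume_preimage_affine (q m : ℝ) (hm : m ≠ 0) (S : Set ℝ) :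
    volume ((fun t : ℝ => q + t * m) ⁻¹' S) = ENNReal.ofReal |m|⁻¹ * volume S := by
  have h1 : (fun t : ℝ => q + t * m) ⁻¹' S = (fun t : ℝ => t * m) ⁻¹' ((fun y : ℝ => q + y) ⁻¹' S) := rfl
  rw [h1, Real.volume_preimage_mul_right hm, measure_preimage_add, abs_inv]

lemma mu_preimage_affine (q m : ℝ) (hm : m ≠ 0) (S : Set ℝ) :
    mu ((fun t : ℝ => q + t * m) ⁻¹' S) = |m|⁻¹ * mu S := by
  unfold mu
  rw [volume_preimage_affine q m hm, ENNReal.toReal_mul, ENNReal.toReal_ofReal (by positivity)]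

lemma mu_split (F : Set ℝ) (hF : MeasurableSet F) {p q r : ℝ} (hpq : p ≤ q) (hqr : q ≤ r) :
    mu (F ∩ Icc p r) = mu (F ∩ Icc p q) + mu (F ∩ Icc q r) := by
  unfold mu
  have h1 : F ∩ Icc p r = (F ∩ Icc p q) ∪ (F ∩ Ioc q r) := by
    rw [← inter_union_distrib_left, Icc_union_Ioc_eq_Icc hpq hqr]
  have h2 : Disjoint (F ∩ Icc p q) (F ∩ Ioc q r) := by
    rw [Set.disjoint_left]
    rintro x ⟨_, hx⟩ ⟨_, hx'⟩
    exact absurd hx.2 (not_le.mpr hx'.1)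
  have h3 : volume (F ∩ Ioc q r) = volume (F ∩ Icc q r) :=
    measure_congr (ae_eq_set_inter (ae_eq_refl _) Ioc_ae_eq_Icc)
  rw [h1, measure_union h2 (hF.inter measurableSet_Ioc), h3,
    ENNReal.toReal_add (volume_inter_Icc_ne_top F p q) (volume_inter_Icc_ne_top F q r)]

lemma mu_inter_of_subset {F : Set ℝ} {p r : ℝ} (h : F ⊆ Icc p r) : mu (F ∩ Icc p r) = mu F := by
  rw [inter_eq_left.mpr h]

lemma mu_inter_singleton (F : Set ℝ) (x : ℝ) : mu (F ∩ {x}) = 0 := by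
  unfold mu
  rw [measure_mono_null (inter_subset_right : F ∩ {x} ⊆ {x}) Real.volume_singleton]
  rfl

lemma mem_Icc_iff_affine_mem_uIcc (x₁ x₂ t : ℝ) (h : x₂ ≠ x₁) :
    t ∈ Icc (0:ℝ) 1 ↔ x₁ + t * (x₂ - x₁) ∈ uIcc x₁ x₂ := by
  rcases lt_or_gt_of_ne h with h' | h'
  · rw [uIcc_of_ge h'.le]
    constructor
    · rintro ⟨h0, h1⟩
      constructor <;> nlinarith
    · rintro ⟨h0, h1⟩
      constructor <;> nlinarith
  · rw [uIcc_of_le h'.le]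
    constructor
    · rintro ⟨h0, h1⟩
      constructor <;> nlinarith
    · rintro ⟨h0, h1⟩
      constructor <;> nlinarith

/-- the inequality given by one segment of the convex set -/
lemma seg_ineq (K : Set (ℝ × ℝ)) (hK : Convex ℝ K) (F₁ F₂ : Set ℝ)
    (hF₁ : MeasurableSet F₁) (hF₂ : MeasurableSet F₂)
    (hdisj : ∀ x ∈ F₁, ∀ y ∈ F₂, (x, y) ∉ K)
    (x₁ y₁ x₂ y₂ : ℝ) (h₁ : (x₁, y₁) ∈ K) (h₂ : (x₂, y₂) ∈ K) :
    |y₂ - y₁| * mu (F₁ ∩ uIcc x₁ x₂) + |x₂ - x₁| * mu (F₂ ∩ uIcc y₁ y₂)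
      ≤ |x₂ - x₁| * |y₂ - y₁| := by
  by_cases hx : x₂ = x₁
  · subst hx
    simp [mu_inter_singleton]
  by_cases hy : y₂ = y₁
  · subst hy
    simp [mu_inter_singleton]
  have hdx : x₂ - x₁ ≠ 0 := sub_ne_zero.mpr hx
  have hdy : y₂ - y₁ ≠ 0 := sub_ne_zero.mpr hy
  set φ₁ : ℝ → ℝ := fun t => x₁ + t * (x₂ - x₁) with hφ₁
  set φ₂ : ℝ → ℝ := fun t => y₁ + t * (y₂ - y₁) with hφ₂
  have hc₁ : Continuous φ₁ := by rw [hφ₁]; fun_prop
  have hc₂ : Continuous φ₂ := by rw [hφ₂]; fun_prop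
  have hT₁ : φ₁ ⁻¹' (F₁ ∩ uIcc x₁ x₂) = Icc (0:ℝ) 1 ∩ φ₁ ⁻¹' F₁ := by
    ext t
    simp only [mem_preimage, mem_inter_iff]
    rw [mem_Icc_iff_affine_mem_uIcc x₁ x₂ t hx]
    tauto
  have hT₂ : φ₂ ⁻¹' (F₂ ∩ uIcc y₁ y₂) = Icc (0:ℝ) 1 ∩ φ₂ ⁻¹' F₂ := by
    ext t
    simp only [mem_preimage, mem_inter_iff]
    rw [mem_Icc_iff_affine_mem_uIcc y₁ y₂ t hy]
    tauto
  have hm₁ : MeasurableSet (Icc (0:ℝ) 1 ∩ φ₁ ⁻¹' F₁) :=
    measurableSet_Icc.inter (hc₁.measurable hF₁)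
  have hm₂ : MeasurableSet (Icc (0:ℝ) 1 ∩ φ₂ ⁻¹' F₂) :=
    measurableSet_Icc.inter (hc₂.measurable hF₂)
  have hd : Disjoint (Icc (0:ℝ) 1 ∩ φ₁ ⁻¹' F₁) (Icc (0:ℝ) 1 ∩ φ₂ ⁻¹' F₂) := by
    rw [Set.disjoint_left]
    rintro t ⟨ht, ht₁⟩ ⟨_, ht₂⟩
    apply hdisj _ ht₁ _ ht₂
    have := hK h₁ h₂ (sub_nonneg.mpr ht.2) ht.1 (by ring : 1 - t + t = 1)
    convert this using 1
    ext <;> simp [hφ₁, hφ₂] <;> ring
  have hle : volume ((Icc (0:ℝ) 1 ∩ φ₁ ⁻¹' F₁) ∪ (Icc (0:ℝ) 1 ∩ φ₂ ⁻¹' F₂)) ≤ 1 := by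
    calc volume ((Icc (0:ℝ) 1 ∩ φ₁ ⁻¹' F₁) ∪ (Icc (0:ℝ) 1 ∩ φ₂ ⁻¹' F₂))
        ≤ volume (Icc (0:ℝ) 1) := measure_mono (by
          rintro t (⟨ht, _⟩ | ⟨ht, _⟩) <;> exact ht)
      _ = 1 := by simp
  rw [measure_union hd hm₂] at hle
  have e₁ : mu (F₁ ∩ uIcc x₁ x₂) = |x₂ - x₁| * mu (Icc (0:ℝ) 1 ∩ φ₁ ⁻¹' F₁) := by
    rw [← hT₁, hφ₁, mu_preimage_affine x₁ (x₂ - x₁) hdx, ← mul_assoc,
      mul_inv_cancel₀ (abs_ne_zero.mpr hdx), one_mul]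
  have e₂ : mu (F₂ ∩ uIcc y₁ y₂) = |y₂ - y₁| * mu (Icc (0:ℝ) 1 ∩ φ₂ ⁻¹' F₂) := by
    rw [← hT₂, hφ₂, mu_preimage_affine y₁ (y₂ - y₁) hdy, ← mul_assoc,
      mul_inv_cancel₀ (abs_ne_zero.mpr hdy), one_mul]
  have hne₁ : volume (Icc (0:ℝ) 1 ∩ φ₁ ⁻¹' F₁) ≠ ⊤ :=
    ne_top_of_le_ne_top ENNReal.one_ne_top (le_trans le_self_add hle)
  have hne₂ : volume (Icc (0:ℝ) 1 ∩ φ₂ ⁻¹' F₂) ≠ ⊤ :=
    ne_top_of_le_ne_top ENNReal.one_ne_top (le_trans le_add_self hle)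
  have hsum : mu (Icc (0:ℝ) 1 ∩ φ₁ ⁻¹' F₁) + mu (Icc (0:ℝ) 1 ∩ φ₂ ⁻¹' F₂) ≤ 1 := by
    unfold mu
    rw [← ENNReal.toReal_add hne₁ hne₂]
    have := ENNReal.toReal_mono ENNReal.one_ne_top hle
    simpa using this
  rw [e₁, e₂]
  have hax : 0 < |x₂ - x₁| := abs_pos.mpr hdx
  have hay : 0 < |y₂ - y₁| := abs_pos.mpr hdy
  nlinarith [mul_pos hax hay, mul_le_mul_of_nonneg_left hsum (mul_pos hax hay).le]

/-- algebraic certificate, case `c ≤ d` -/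
lemma cert_le (a b c d f g fA fA' fB fB' gC gC' gD gD' gM : ℝ)
    (hc0 : 0 ≤ c) (hc1 : c ≤ 1) (hd0 : 0 ≤ d) (hd1 : d ≤ 1)
    (fa : f = fA + fA') (fb : f = fB + fB') (gc : g = gC + gC') (gd : g = gD + gD')
    (gm1 : gD = gC + gM) (gm2 : gC' = gM + gD')
    (sLD : c * fA + a * gC ≤ a * c) (sDR : d * fA' + (1 - a) * gD ≤ (1 - a) * d)
    (sLT : (1 - c) * fB + b * gC' ≤ b * (1 - c))
    (sTR : (1 - d) * fB' + (1 - b) * gD' ≤ (1 - b) * (1 - d))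
    (sLR : (d - c) * f + gM ≤ d - c)
    (hΛ : b * c * (1 - d) - a * d * (1 - c) + a * b * (d - c) ≤ 0)
    (hP : 0 < a * d + (1 - a) * c) (hQ : 0 < b * (1 - d) + (1 - b) * (1 - c)) :
    f + g ≤ 1 := by
  have w1 : 0 ≤ d * (b * (1 - d) + (1 - b) * (1 - c)) := mul_nonneg hd0 hQ.le
  have w2 : 0 ≤ c * (b * (1 - d) + (1 - b) * (1 - c)) := mul_nonneg hc0 hQ.le
  have w3 : 0 ≤ (1 - d) * (a * d + (1 - a) * c) := mul_nonneg (sub_nonneg.mpr hd1) hP.le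
  have w4 : 0 ≤ (1 - c) * (a * d + (1 - a) * c) := mul_nonneg (sub_nonneg.mpr hc1) hP.le
  have i1 := mul_le_mul_of_nonneg_left sLD w1
  have i2 := mul_le_mul_of_nonneg_left sDR w2
  have i3 := mul_le_mul_of_nonneg_left sLT w3
  have i4 := mul_le_mul_of_nonneg_left sTR w4
  have i5 := mul_le_mul_of_nonneg_left sLR (neg_nonneg.mpr hΛ)
  have hPQ : 0 < (a * d + (1 - a) * c) * (b * (1 - d) + (1 - b) * (1 - c)) := mul_pos hP hQ
  have hfA' : fA' = f - fA := by linarith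
  have hfB' : fB' = f - fB := by linarith
  have hgD' : gD' = g - gC - gM := by linarith
  have hgC' : gC' = g - gC := by linarith
  subst hfA' hfB' hgD' hgC' gm1
  have key : (a * d + (1 - a) * c) * (b * (1 - d) + (1 - b) * (1 - c)) * (f + g - 1) ≤ 0 := by
    have e : (a * d + (1 - a) * c) * (b * (1 - d) + (1 - b) * (1 - c)) * (f + g - 1)
        = (d * (b * (1 - d) + (1 - b) * (1 - c)) * (c * fA + a * gC)
            - d * (b * (1 - d) + (1 - b) * (1 - c)) * (a * c))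
          + (c * (b * (1 - d) + (1 - b) * (1 - c)) * (d * (f - fA) + (1 - a) * (gC + gM))
            - c * (b * (1 - d) + (1 - b) * (1 - c)) * ((1 - a) * d))
          + ((1 - d) * (a * d + (1 - a) * c) * ((1 - c) * fB + b * (g - gC))
            - (1 - d) * (a * d + (1 - a) * c) * (b * (1 - c)))
          + ((1 - c) * (a * d + (1 - a) * c) * ((1 - d) * (f - fB) + (1 - b) * (g - gC - gM))
            - (1 - c) * (a * d + (1 - a) * c) * ((1 - b) * (1 - d)))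
          + (-(b * c * (1 - d) - a * d * (1 - c) + a * b * (d - c)) * ((d - c) * f + gM)
            - -(b * c * (1 - d) - a * d * (1 - c) + a * b * (d - c)) * (d - c)) := by
      ring
    rw [e]
    linarith
  by_contra hcon
  have : 0 < f + g - 1 := by linarith
  have := mul_pos hPQ this
  linarith

/-- algebraic certificate, case `d ≤ c` -/
lemma cert_ge (a b c d f g fA fA' fB fB' gC gC' gD gD' gM : ℝ)
    (hc0 : 0 ≤ c) (hc1 : c ≤ 1) (hd0 : 0 ≤ d) (hd1 : d ≤ 1)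
    (fa : f = fA + fA') (fb : f = fB + fB') (gc : g = gC + gC') (gd : g = gD + gD')
    (gm1 : gC = gD + gM) (gm2 : gD' = gM + gC')
    (sLD : c * fA + a * gC ≤ a * c) (sDR : d * fA' + (1 - a) * gD ≤ (1 - a) * d)
    (sLT : (1 - c) * fB + b * gC' ≤ b * (1 - c))
    (sTR : (1 - d) * fB' + (1 - b) * gD' ≤ (1 - b) * (1 - d))
    (sLR : (c - d) * f + gM ≤ c - d)
    (hΛ : 0 ≤ b * c * (1 - d) - a * d * (1 - c) + a * b * (d - c))
    (hP : 0 < a * d + (1 - a) * c) (hQ : 0 < b * (1 - d) + (1 - b) * (1 - c)) :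
    f + g ≤ 1 := by
  have w1 : 0 ≤ d * (b * (1 - d) + (1 - b) * (1 - c)) := mul_nonneg hd0 hQ.le
  have w2 : 0 ≤ c * (b * (1 - d) + (1 - b) * (1 - c)) := mul_nonneg hc0 hQ.le
  have w3 : 0 ≤ (1 - d) * (a * d + (1 - a) * c) := mul_nonneg (sub_nonneg.mpr hd1) hP.le
  have w4 : 0 ≤ (1 - c) * (a * d + (1 - a) * c) := mul_nonneg (sub_nonneg.mpr hc1) hP.le
  have i1 := mul_le_mul_of_nonneg_left sLD w1
  have i2 := mul_le_mul_of_nonneg_left sDR w2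
  have i3 := mul_le_mul_of_nonneg_left sLT w3
  have i4 := mul_le_mul_of_nonneg_left sTR w4
  have i5 := mul_le_mul_of_nonneg_left sLR hΛ
  have hPQ : 0 < (a * d + (1 - a) * c) * (b * (1 - d) + (1 - b) * (1 - c)) := mul_pos hP hQ
  have hfA' : fA' = f - fA := by linarith
  have hfB' : fB' = f - fB := by linarith
  have hgC' : gC' = g - gD - gM := by linarith
  have hgD' : gD' = g - gD := by linarith
  subst hfA' hfB' hgD' hgC' gm1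
  have key : (a * d + (1 - a) * c) * (b * (1 - d) + (1 - b) * (1 - c)) * (f + g - 1) ≤ 0 := by
    have e : (a * d + (1 - a) * c) * (b * (1 - d) + (1 - b) * (1 - c)) * (f + g - 1)
        = (d * (b * (1 - d) + (1 - b) * (1 - c)) * (c * fA + a * (gD + gM))
            - d * (b * (1 - d) + (1 - b) * (1 - c)) * (a * c))
          + (c * (b * (1 - d) + (1 - b) * (1 - c)) * (d * (f - fA) + (1 - a) * gD)
            - c * (b * (1 - d) + (1 - b) * (1 - c)) * ((1 - a) * d))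
          + ((1 - d) * (a * d + (1 - a) * c) * ((1 - c) * fB + b * (g - gD - gM))
            - (1 - d) * (a * d + (1 - a) * c) * (b * (1 - c)))
          + ((1 - c) * (a * d + (1 - a) * c) * ((1 - d) * (f - fB) + (1 - b) * (g - gD))
            - (1 - c) * (a * d + (1 - a) * c) * ((1 - b) * (1 - d)))
          + ((b * c * (1 - d) - a * d * (1 - c) + a * b * (d - c)) * ((c - d) * f + gM)
            - (b * c * (1 - d) - a * d * (1 - c) + a * b * (d - c)) * (c - d)) := by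
      ring
    rw [e]
    linarith
  by_contra hcon
  have : 0 < f + g - 1 := by linarith
  have := mul_pos hPQ this
  linarith

/-- the generic five-segment certificate -/
lemma planar_gen (K : Set (ℝ × ℝ)) (hK : Convex ℝ K) (F₁ F₂ : Set ℝ)
    (hF₁ : MeasurableSet F₁) (hF₂ : MeasurableSet F₂)
    (hF₁s : F₁ ⊆ Icc 0 1) (hF₂s : F₂ ⊆ Icc 0 1)
    (hdisj : ∀ x ∈ F₁, ∀ y ∈ F₂, (x, y) ∉ K)
    (a b c d : ℝ) (ha : a ∈ Icc (0:ℝ) 1) (hb : b ∈ Icc (0:ℝ) 1)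
    (hc : c ∈ Icc (0:ℝ) 1) (hd : d ∈ Icc (0:ℝ) 1)
    (hL : ((0:ℝ), c) ∈ K) (hD : (a, (0:ℝ)) ∈ K) (hR : ((1:ℝ), d) ∈ K) (hT : (b, (1:ℝ)) ∈ K)
    (hP : 0 < a * d + (1 - a) * c) (hQ : 0 < b * (1 - d) + (1 - b) * (1 - c))
    (hΛ : (c ≤ d ∧ b * c * (1 - d) - a * d * (1 - c) + a * b * (d - c) ≤ 0) ∨
      (d ≤ c ∧ 0 ≤ b * c * (1 - d) - a * d * (1 - c) + a * b * (d - c))) :
    mu F₁ + mu F₂ ≤ 1 := by
  obtain ⟨ha0, ha1⟩ := ha
  obtain ⟨hb0, hb1⟩ := hb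
  obtain ⟨hc0, hc1⟩ := hc
  obtain ⟨hd0, hd1⟩ := hd
  have zero_le_one' : (0:ℝ) ≤ 1 := zero_le_one
  -- atoms
  have fa := mu_split F₁ hF₁ ha0 ha1
  have fb := mu_split F₁ hF₁ hb0 hb1
  have gc := mu_split F₂ hF₂ hc0 hc1
  have gd := mu_split F₂ hF₂ hd0 hd1
  rw [mu_inter_of_subset hF₁s] at fa fb
  rw [mu_inter_of_subset hF₂s] at gc gd
  -- the segments
  have sLD := seg_ineq K hK F₁ F₂ hF₁ hF₂ hdisj 0 c a 0 hL hD
  have sDR := seg_ineq K hK F₁ F₂ hF₁ hF₂ hdisj a 0 1 d hD hR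
  have sLT := seg_ineq K hK F₁ F₂ hF₁ hF₂ hdisj 0 c b 1 hL hT
  have sTR := seg_ineq K hK F₁ F₂ hF₁ hF₂ hdisj b 1 1 d hT hR
  have sLR := seg_ineq K hK F₁ F₂ hF₁ hF₂ hdisj 0 c 1 d hL hR
  rw [uIcc_of_le ha0, uIcc_of_ge hc0, sub_zero, zero_sub, abs_neg, abs_of_nonneg hc0,
    abs_of_nonneg ha0] at sLD
  rw [uIcc_of_le ha1, uIcc_of_le hd0, sub_zero, abs_of_nonneg hd0,
    abs_of_nonneg (sub_nonneg.mpr ha1)] at sDR
  rw [uIcc_of_le hb0, uIcc_of_le hc1, sub_zero, abs_of_nonneg hb0,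
    abs_of_nonneg (sub_nonneg.mpr hc1)] at sLT
  rw [uIcc_of_le hb1, uIcc_of_ge hd1, abs_sub_comm d 1, abs_of_nonneg (sub_nonneg.mpr hd1),
    abs_of_nonneg (sub_nonneg.mpr hb1)] at sTR
  rw [uIcc_of_le zero_le_one', mu_inter_of_subset hF₁s, sub_zero, abs_one, one_mul, one_mul] at sLR
  rcases hΛ with ⟨hcd, hΛ'⟩ | ⟨hcd, hΛ'⟩
  · rw [uIcc_of_le hcd, abs_of_nonneg (sub_nonneg.mpr hcd)] at sLR
    have gm1 := mu_split F₂ hF₂ hc0 hcd
    have gm2 := mu_split F₂ hF₂ hcd hd1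
    exact cert_le a b c d _ _ _ _ _ _ _ _ _ _ _ hc0 hc1 hd0 hd1 fa fb gc gd gm1 gm2
      sLD sDR sLT sTR sLR hΛ' hP hQ
  · rw [uIcc_of_ge hcd, abs_sub_comm d c, abs_of_nonneg (sub_nonneg.mpr hcd)] at sLR
    have gm1 := mu_split F₂ hF₂ hd0 hcd
    have gm2 := mu_split F₂ hF₂ hcd hc1
    exact cert_ge a b c d _ _ _ _ _ _ _ _ _ _ _ hc0 hc1 hd0 hd1 fa fb gc gd gm1 gm2
      sLD sDR sLT sTR sLR hΛ' hP hQ

/-- transposition of a planar set -/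
def transp (K : Set (ℝ × ℝ)) : Set (ℝ × ℝ) := {p | (p.2, p.1) ∈ K}

lemma transp_convex {K : Set (ℝ × ℝ)} (hK : Convex ℝ K) : Convex ℝ (transp K) := by
  intro p hp q hq s t hs ht hst
  have := hK hp hq hs ht hst
  simpa [transp] using this

/-- the interior case: all four touching points are interior to their sides -/
lemma planar_interior (K : Set (ℝ × ℝ)) (hK : Convex ℝ K) (F₁ F₂ : Set ℝ)
    (hF₁ : MeasurableSet F₁) (hF₂ : MeasurableSet F₂)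
    (hF₁s : F₁ ⊆ Icc 0 1) (hF₂s : F₂ ⊆ Icc 0 1)
    (hdisj : ∀ x ∈ F₁, ∀ y ∈ F₂, (x, y) ∉ K)
    (a b c d : ℝ) (ha : a ∈ Ioo (0:ℝ) 1) (hb : b ∈ Ioo (0:ℝ) 1)
    (hc : c ∈ Ioo (0:ℝ) 1) (hd : d ∈ Ioo (0:ℝ) 1)
    (hL : ((0:ℝ), c) ∈ K) (hD : (a, (0:ℝ)) ∈ K) (hR : ((1:ℝ), d) ∈ K) (hT : (b, (1:ℝ)) ∈ K) :
    mu F₁ + mu F₂ ≤ 1 := by
  obtain ⟨ha0, ha1⟩ := ha
  obtain ⟨hb0, hb1⟩ := hb
  obtain ⟨hc0, hc1⟩ := hc
  obtain ⟨hd0, hd1⟩ := hd
  have hP : 0 < a * d + (1 - a) * c := by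
    have h1 := mul_pos ha0 hd0
    have h2 := mul_pos (sub_pos.mpr ha1) hc0
    linarith
  have hQ : 0 < b * (1 - d) + (1 - b) * (1 - c) := by
    have h1 := mul_pos hb0 (sub_pos.mpr hd1)
    have h2 := mul_pos (sub_pos.mpr hb1) (sub_pos.mpr hc1)
    linarith
  have hP' : 0 < c * b + (1 - c) * a := by
    have h1 := mul_pos hc0 hb0
    have h2 := mul_pos (sub_pos.mpr hc1) ha0
    linarith
  have hQ' : 0 < d * (1 - b) + (1 - d) * (1 - a) := by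
    have h1 := mul_pos hd0 (sub_pos.mpr hb1)
    have h2 := mul_pos (sub_pos.mpr hd1) (sub_pos.mpr ha1)
    linarith
  by_cases hdir : (c ≤ d ∧ b * c * (1 - d) - a * d * (1 - c) + a * b * (d - c) ≤ 0) ∨
      (d ≤ c ∧ 0 ≤ b * c * (1 - d) - a * d * (1 - c) + a * b * (d - c))
  · exact planar_gen K hK F₁ F₂ hF₁ hF₂ hF₁s hF₂s hdisj a b c d ⟨ha0.le, ha1.le⟩ ⟨hb0.le, hb1.le⟩
      ⟨hc0.le, hc1.le⟩ ⟨hd0.le, hd1.le⟩ hL hD hR hT hP hQ hdir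
  · -- the transposed configuration
    have hdisj' : ∀ x ∈ F₂, ∀ y ∈ F₁, (x, y) ∉ transp K := fun x hx y hy => hdisj y hy x hx
    have e1 : b * c * (1 - d) - a * d * (1 - c) + a * b * (d - c)
        = -(a * (1 - a) * (d - c)) - (a - b) * (c * (1 - d) + a * (d - c)) := by ring
    have e2 : b * c * (1 - d) - a * d * (1 - c) + a * b * (d - c)
        = a * (1 - a) * (c - d) + (b - a) * (d * (1 - c) + (1 - a) * (c - d)) := by ring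
    have e3 : d * a * (1 - b) - c * b * (1 - a) + c * d * (b - a)
        = -(b * c * (1 - d) - a * d * (1 - c) + a * b * (d - c)) := by ring
    have hdir' : (a ≤ b ∧ d * a * (1 - b) - c * b * (1 - a) + c * d * (b - a) ≤ 0) ∨
        (b ≤ a ∧ 0 ≤ d * a * (1 - b) - c * b * (1 - a) + c * d * (b - a)) := by
      rcases le_or_gt c d with hcd | hcd
      · -- then Λ > 0 and c < d
        have hΛ : 0 < b * c * (1 - d) - a * d * (1 - c) + a * b * (d - c) := by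
          by_contra hcon
          exact hdir (Or.inl ⟨hcd, not_lt.mp hcon⟩)
        have hcd' : c < d := by
          rcases eq_or_lt_of_le hcd with h | h
          · exact absurd (Or.inr ⟨h.ge, hΛ.le⟩) hdir
          · exact h
        left
        refine ⟨?_, by rw [e3]; linarith⟩
        by_contra hab
        have hab' : b < a := not_le.mp hab
        have t1 : 0 ≤ a * (1 - a) * (d - c) :=
          mul_nonneg (mul_nonneg ha0.le (sub_nonneg.mpr ha1.le)) (sub_nonneg.mpr hcd)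
        have t2 : 0 < (a - b) * (c * (1 - d) + a * (d - c)) := by
          apply mul_pos (sub_pos.mpr hab')
          have h1 := mul_pos hc0 (sub_pos.mpr hd1)
          have h2 := mul_pos ha0 (sub_pos.mpr hcd')
          linarith
        linarith
      · -- then Λ < 0 and d < c
        have hΛ : b * c * (1 - d) - a * d * (1 - c) + a * b * (d - c) < 0 := by
          by_contra hcon
          exact hdir (Or.inr ⟨hcd.le, not_lt.mp hcon⟩)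
        right
        refine ⟨?_, by rw [e3]; linarith⟩
        by_contra hab
        have hab' : a < b := not_le.mp hab
        have t1 : 0 ≤ a * (1 - a) * (c - d) :=
          mul_nonneg (mul_nonneg ha0.le (sub_nonneg.mpr ha1.le)) (sub_nonneg.mpr hcd.le)
        have t2 : 0 ≤ (b - a) * (d * (1 - c) + (1 - a) * (c - d)) := by
          apply mul_nonneg (sub_nonneg.mpr hab'.le)
          have h1 := mul_nonneg hd0.le (sub_nonneg.mpr hc1.le)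
          have h2 := mul_nonneg (sub_nonneg.mpr ha1.le) (sub_nonneg.mpr hcd.le)
          linarith
        linarith
    have := planar_gen (transp K) (transp_convex hK) F₂ F₁ hF₂ hF₁ hF₂s hF₁s hdisj' c d a b
      ⟨hc0.le, hc1.le⟩ ⟨hd0.le, hd1.le⟩ ⟨ha0.le, ha1.le⟩ ⟨hb0.le, hb1.le⟩
      (by simpa [transp] using hD) (by simpa [transp] using hL)
      (by simpa [transp] using hT) (by simpa [transp] using hR) hP' hQ' hdir'
    linarith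

lemma mu_inter_Icc_le (F : Set ℝ) {p q : ℝ} (hpq : p ≤ q) : mu (F ∩ Icc p q) ≤ q - p := by
  unfold mu
  have h := ENNReal.toReal_mono (by simp : volume (Icc p q) ≠ ⊤)
    (measure_mono (inter_subset_right : F ∩ Icc p q ⊆ Icc p q))
  rw [Real.volume_Icc, ENNReal.toReal_ofReal (sub_nonneg.mpr hpq)] at h
  exact h

/-- one-coordinate bookkeeping for a corner of the unit square -/
lemma corner_coord (F : Set ℝ) (hF : MeasurableSet F) (hFs : F ⊆ Icc 0 1) (x₀ h : ℝ)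
    (hx₀ : x₀ = 0 ∨ x₀ = 1) (hh : h ∈ Icc (0:ℝ) 1) :
    |1 - x₀ - x₀| = 1 ∧ uIcc x₀ (1 - x₀) = Icc 0 1 ∧
    mu (F ∩ uIcc x₀ h) + mu (F ∩ uIcc (1 - x₀) h) = mu F ∧
    |h - (1 - x₀)| = 1 - |h - x₀| ∧ 0 ≤ |h - x₀| ∧ |h - x₀| ≤ 1 ∧
    mu (F ∩ uIcc h (1 - x₀)) ≤ 1 - |h - x₀| := by
  obtain ⟨h0, h1⟩ := hh
  have sp := mu_split F hF h0 h1
  rw [mu_inter_of_subset hFs] at sp
  rcases hx₀ with rfl | rfl
  · have e1 : |h - (1 - 0)| = 1 - h := by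
      rw [sub_zero, abs_sub_comm, abs_of_nonneg (sub_nonneg.mpr h1)]
    refine ⟨by norm_num, by rw [sub_zero, uIcc_of_le zero_le_one], ?_, ?_, abs_nonneg _, ?_, ?_⟩
    · rw [sub_zero, uIcc_of_le h0, uIcc_of_ge h1]; linarith
    · rw [e1, sub_zero, abs_of_nonneg h0]
    · rw [sub_zero, abs_of_nonneg h0]; exact h1
    · rw [sub_zero, sub_zero, abs_of_nonneg h0, uIcc_of_le h1]
      exact mu_inter_Icc_le F h1
  · have e1 : |h - (1 - 1)| = h := by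
      rw [sub_self, sub_zero, abs_of_nonneg h0]
    have e2 : |h - 1| = 1 - h := by
      rw [abs_sub_comm, abs_of_nonneg (sub_nonneg.mpr h1)]
    refine ⟨by norm_num, by rw [sub_self, uIcc_of_ge zero_le_one], ?_, ?_, abs_nonneg _, ?_, ?_⟩
    · rw [sub_self, uIcc_of_ge h1, uIcc_of_le h0]; linarith
    · rw [e1, e2]; ring
    · rw [e2]; linarith
    · rw [e2, sub_self, uIcc_of_ge h0]
      have := mu_inter_Icc_le F h0
      linarith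

lemma corner_arith (β δ f g fn ff gn gf : ℝ) (hβ1 : β ≤ 1) (hδ0 : 0 ≤ δ)
    (hδ1 : δ ≤ 1) (hf : fn + ff = f) (hg : gn + gf = g) (hgf : gf ≤ 1 - δ)
    (s1 : δ * f + gn ≤ δ) (s2 : fn + β * g ≤ β)
    (s3 : (1 - δ) * ff + (1 - β) * gf ≤ (1 - β) * (1 - δ)) : f + g ≤ 1 := by
  by_cases hbd : β * δ < 1
  · have i1 := mul_le_mul_of_nonneg_left s1 (sub_nonneg.mpr hβ1)
    have i2 := mul_le_mul_of_nonneg_left s2 (sub_nonneg.mpr hδ1)
    subst hf hg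
    have key : (1 - β * δ) * (fn + ff + (gn + gf) - 1) ≤ 0 := by
      have e : (1 - β * δ) * (fn + ff + (gn + gf) - 1)
          = ((1 - β) * (δ * (fn + ff) + gn) - (1 - β) * δ)
            + ((1 - δ) * (fn + β * (gn + gf)) - (1 - δ) * β)
            + ((1 - δ) * ff + (1 - β) * gf - (1 - β) * (1 - δ)) := by ring
      rw [e]
      linarith
    by_contra hcon
    have h1 : 0 < fn + ff + (gn + gf) - 1 := by linarith
    have h2 : 0 < 1 - β * δ := by linarith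
    have := mul_pos h2 h1
    linarith
  · have h1 : β * δ ≤ δ := by
      have := mul_le_mul_of_nonneg_right hβ1 hδ0
      linarith
    have hδ : δ = 1 := by linarith
    subst hδ
    linarith

/-- the corner case: the convex set contains a corner of the unit square -/
lemma planar_corner (K : Set (ℝ × ℝ)) (hK : Convex ℝ K) (F₁ F₂ : Set ℝ)
    (hF₁ : MeasurableSet F₁) (hF₂ : MeasurableSet F₂)
    (hF₁s : F₁ ⊆ Icc 0 1) (hF₂s : F₂ ⊆ Icc 0 1)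
    (hdisj : ∀ x ∈ F₁, ∀ y ∈ F₂, (x, y) ∉ K)
    (x₀ y₀ v hh : ℝ) (hx₀ : x₀ = 0 ∨ x₀ = 1) (hy₀ : y₀ = 0 ∨ y₀ = 1)
    (hv : v ∈ Icc (0:ℝ) 1) (hhh : hh ∈ Icc (0:ℝ) 1)
    (hO : (x₀, y₀) ∈ K) (hV : (1 - x₀, v) ∈ K) (hH : (hh, 1 - y₀) ∈ K) :
    mu F₁ + mu F₂ ≤ 1 := by
  obtain ⟨x1, x2, x3, x4, x5, x6, x7⟩ := corner_coord F₁ hF₁ hF₁s x₀ hh hx₀ hhh
  obtain ⟨y1, y2, y3, y4, y5, y6, y7⟩ := corner_coord F₂ hF₂ hF₂s y₀ v hy₀ hv
  have s1 := seg_ineq K hK F₁ F₂ hF₁ hF₂ hdisj x₀ y₀ (1 - x₀) v hO hV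
  have s2 := seg_ineq K hK F₁ F₂ hF₁ hF₂ hdisj x₀ y₀ hh (1 - y₀) hO hH
  have s3 := seg_ineq K hK F₁ F₂ hF₁ hF₂ hdisj (1 - x₀) v hh (1 - y₀) hV hH
  rw [x1, x2, mu_inter_of_subset hF₁s, one_mul, one_mul] at s1
  rw [y1, y2, mu_inter_of_subset hF₂s, one_mul, mul_one] at s2
  rw [x4, abs_sub_comm (1 - y₀) v, y4] at s3
  exact corner_arith |hh - x₀| |v - y₀| (mu F₁) (mu F₂) (mu (F₁ ∩ uIcc x₀ hh))
    (mu (F₁ ∩ uIcc (1 - x₀) hh)) (mu (F₂ ∩ uIcc y₀ v)) (mu (F₂ ∩ uIcc v (1 - y₀)))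
    x6 y5 y6 x3 (by rw [uIcc_comm v (1 - y₀)]; exact y3) y7 s1 s2 s3

/-- the planar lemma in the unit square -/
lemma planar_unit (K : Set (ℝ × ℝ)) (hK : Convex ℝ K) (F₁ F₂ : Set ℝ)
    (hF₁ : MeasurableSet F₁) (hF₂ : MeasurableSet F₂)
    (hF₁s : F₁ ⊆ Icc 0 1) (hF₂s : F₂ ⊆ Icc 0 1)
    (hdisj : ∀ x ∈ F₁, ∀ y ∈ F₂, (x, y) ∉ K)
    (a b c d : ℝ) (ha : a ∈ Icc (0:ℝ) 1) (hb : b ∈ Icc (0:ℝ) 1)
    (hc : c ∈ Icc (0:ℝ) 1) (hd : d ∈ Icc (0:ℝ) 1)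
    (hL : ((0:ℝ), c) ∈ K) (hD : (a, (0:ℝ)) ∈ K) (hR : ((1:ℝ), d) ∈ K) (hT : (b, (1:ℝ)) ∈ K) :
    mu F₁ + mu F₂ ≤ 1 := by
  have corner := planar_corner K hK F₁ F₂ hF₁ hF₂ hF₁s hF₂s hdisj
  by_cases ha0 : a = 0
  · subst ha0
    exact corner 0 0 d b (Or.inl rfl) (Or.inl rfl) hd hb hD (by simpa using hR) (by simpa using hT)
  by_cases hc0 : c = 0
  · subst hc0
    exact corner 0 0 d b (Or.inl rfl) (Or.inl rfl) hd hb hL (by simpa using hR) (by simpa using hT)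
  by_cases ha1 : a = 1
  · subst ha1
    exact corner 1 0 c b (Or.inr rfl) (Or.inl rfl) hc hb hD (by simpa using hL) (by simpa using hT)
  by_cases hd0 : d = 0
  · subst hd0
    exact corner 1 0 c b (Or.inr rfl) (Or.inl rfl) hc hb hR (by simpa using hL) (by simpa using hT)
  by_cases hb0 : b = 0
  · subst hb0
    exact corner 0 1 d a (Or.inl rfl) (Or.inr rfl) hd ha hT (by simpa using hR) (by simpa using hD)
  by_cases hc1 : c = 1
  · subst hc1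
    exact corner 0 1 d a (Or.inl rfl) (Or.inr rfl) hd ha hL (by simpa using hR) (by simpa using hD)
  by_cases hb1 : b = 1
  · subst hb1
    exact corner 1 1 c a (Or.inr rfl) (Or.inr rfl) hc ha hT (by simpa using hL) (by simpa using hD)
  by_cases hd1 : d = 1
  · subst hd1
    exact corner 1 1 c a (Or.inr rfl) (Or.inr rfl) hc ha hR (by simpa using hL) (by simpa using hD)
  exact planar_interior K hK F₁ F₂ hF₁ hF₂ hF₁s hF₂s hdisj a b c d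
    ⟨lt_of_le_of_ne ha.1 (Ne.symm ha0), lt_of_le_of_ne ha.2 ha1⟩
    ⟨lt_of_le_of_ne hb.1 (Ne.symm hb0), lt_of_le_of_ne hb.2 hb1⟩
    ⟨lt_of_le_of_ne hc.1 (Ne.symm hc0), lt_of_le_of_ne hc.2 hc1⟩
    ⟨lt_of_le_of_ne hd.1 (Ne.symm hd0), lt_of_le_of_ne hd.2 hd1⟩ hL hD hR hT

lemma mu_unit_compl_preimage (G : Set ℝ) (hG : MeasurableSet G) (l w : ℝ) (hw : 0 < w) :
    mu (Icc (0:ℝ) 1 ∩ ((fun t : ℝ => l + t * w) ⁻¹' G)ᶜ)
      = 1 - w⁻¹ * mu (G ∩ Icc l (l + w)) := by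
  have hcont : Continuous (fun t : ℝ => l + t * w) := by fun_prop
  have hm : MeasurableSet ((fun t : ℝ => l + t * w) ⁻¹' G) := hcont.measurable hG
  have h1 : Icc (0:ℝ) 1 ∩ (fun t : ℝ => l + t * w) ⁻¹' G
      = (fun t : ℝ => l + t * w) ⁻¹' (G ∩ Icc l (l + w)) := by
    ext t
    simp only [mem_inter_iff, mem_preimage, mem_Icc]
    constructor
    · rintro ⟨⟨h0, h1⟩, hg⟩
      refine ⟨hg, by nlinarith, by nlinarith⟩
    · rintro ⟨hg, h0, h1⟩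
      refine ⟨⟨?_, ?_⟩, hg⟩
      · by_contra hcon
        have : t * w < 0 := mul_neg_of_neg_of_pos (not_le.mp hcon) hw
        linarith
      · by_contra hcon
        have : 0 < (t - 1) * w := mul_pos (by linarith [not_le.mp hcon]) hw
        nlinarith
  have h2 := measure_inter_add_diff (μ := volume) (Icc (0:ℝ) 1) hm
  have h3 : volume (Icc (0:ℝ) 1 ∩ (fun t : ℝ => l + t * w) ⁻¹' G) ≠ ⊤ := by
    rw [inter_comm]; exact volume_inter_Icc_ne_top _ 0 1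
  have h4 : volume (Icc (0:ℝ) 1 \ (fun t : ℝ => l + t * w) ⁻¹' G) ≠ ⊤ :=
    ne_top_of_le_ne_top (by simp) (measure_mono (diff_subset : Icc (0:ℝ) 1 \ _ ⊆ Icc 0 1))
  have h5 : mu (Icc (0:ℝ) 1 ∩ (fun t : ℝ => l + t * w) ⁻¹' G)
      + mu (Icc (0:ℝ) 1 \ (fun t : ℝ => l + t * w) ⁻¹' G) = 1 := by
    unfold mu
    rw [← ENNReal.toReal_add h3 h4, h2]
    simp
  have h6 : mu (Icc (0:ℝ) 1 ∩ (fun t : ℝ => l + t * w) ⁻¹' G) = w⁻¹ * mu (G ∩ Icc l (l + w)) := by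
    rw [h1, mu_preimage_affine l w hw.ne', abs_of_pos hw]
  rw [← diff_eq]
  linarith

/-- the planar lemma for a general box, in covering form -/
lemma planar_box (K : Set (ℝ × ℝ)) (hK : Convex ℝ K) (G₁ G₂ : Set ℝ)
    (hG₁ : MeasurableSet G₁) (hG₂ : MeasurableSet G₂)
    (hcov : ∀ p ∈ K, p.1 ∈ G₁ ∨ p.2 ∈ G₂)
    (l₁ r₁ l₂ r₂ a b c d : ℝ) (h₁ : l₁ ≤ r₁) (h₂ : l₂ ≤ r₂)
    (ha : a ∈ Icc l₁ r₁) (hb : b ∈ Icc l₁ r₁) (hc : c ∈ Icc l₂ r₂) (hd : d ∈ Icc l₂ r₂)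
    (hL : (l₁, c) ∈ K) (hD : (a, l₂) ∈ K) (hR : (r₁, d) ∈ K) (hT : (b, r₂) ∈ K) :
    (r₁ - l₁) * (r₂ - l₂)
      ≤ mu (G₁ ∩ Icc l₁ r₁) * (r₂ - l₂) + mu (G₂ ∩ Icc l₂ r₂) * (r₁ - l₁) := by
  rcases eq_or_lt_of_le h₁ with h₁' | h₁'
  · subst h₁'
    have := mul_nonneg (mu_nonneg (G₂ ∩ Icc l₂ r₂)) (sub_nonneg.mpr h₁)
    have := mul_nonneg (mu_nonneg (G₁ ∩ Icc l₁ l₁)) (sub_nonneg.mpr h₂)
    simp only [sub_self, zero_mul, mul_zero, add_zero] at *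
    linarith
  rcases eq_or_lt_of_le h₂ with h₂' | h₂'
  · subst h₂'
    have := mul_nonneg (mu_nonneg (G₂ ∩ Icc l₂ l₂)) (sub_nonneg.mpr h₁)
    simp only [sub_self, zero_mul, mul_zero, zero_add] at *
    linarith
  have hw₁ : 0 < r₁ - l₁ := sub_pos.mpr h₁'
  have hw₂ : 0 < r₂ - l₂ := sub_pos.mpr h₂'
  set w₁ := r₁ - l₁ with hw₁def
  set w₂ := r₂ - l₂ with hw₂def
  set K' : Set (ℝ × ℝ) := {p | (l₁ + p.1 * w₁, l₂ + p.2 * w₂) ∈ K} with hK'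
  have hK'conv : Convex ℝ K' := by
    intro p hp q hq s t hs ht hst
    have := hK hp hq hs ht hst
    rw [hK', mem_setOf_eq]
    convert this using 1
    have hs' : s = 1 - t := by linarith
    subst hs'
    ext <;> simp <;> ring
  set F₁ : Set ℝ := Icc (0:ℝ) 1 ∩ ((fun t : ℝ => l₁ + t * w₁) ⁻¹' G₁)ᶜ with hF₁def
  set F₂ : Set ℝ := Icc (0:ℝ) 1 ∩ ((fun t : ℝ => l₂ + t * w₂) ⁻¹' G₂)ᶜ with hF₂def
  have hc₁ : Continuous (fun t : ℝ => l₁ + t * w₁) := by fun_prop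
  have hc₂ : Continuous (fun t : ℝ => l₂ + t * w₂) := by fun_prop
  have hF₁ : MeasurableSet F₁ := measurableSet_Icc.inter (hc₁.measurable hG₁).compl
  have hF₂ : MeasurableSet F₂ := measurableSet_Icc.inter (hc₂.measurable hG₂).compl
  have hdisj : ∀ x ∈ F₁, ∀ y ∈ F₂, (x, y) ∉ K' := by
    rintro x ⟨_, hx⟩ y ⟨_, hy⟩ hxy
    rcases hcov _ hxy with h | h
    · exact hx h
    · exact hy h
  have key := planar_unit K' hK'conv F₁ F₂ hF₁ hF₂ inter_subset_left inter_subset_left hdisj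
    ((a - l₁) / w₁) ((b - l₁) / w₁) ((c - l₂) / w₂) ((d - l₂) / w₂)
    ⟨div_nonneg (sub_nonneg.mpr ha.1) hw₁.le, (div_le_one hw₁).mpr (by linarith [ha.2])⟩
    ⟨div_nonneg (sub_nonneg.mpr hb.1) hw₁.le, (div_le_one hw₁).mpr (by linarith [hb.2])⟩
    ⟨div_nonneg (sub_nonneg.mpr hc.1) hw₂.le, (div_le_one hw₂).mpr (by linarith [hc.2])⟩
    ⟨div_nonneg (sub_nonneg.mpr hd.1) hw₂.le, (div_le_one hw₂).mpr (by linarith [hd.2])⟩
    (by
      rw [hK', mem_setOf_eq]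
      convert hL using 2
      · simp
      · field_simp; ring)
    (by
      rw [hK', mem_setOf_eq]
      convert hD using 2
      · field_simp; ring
      · simp)
    (by
      rw [hK', mem_setOf_eq]
      convert hR using 2
      · simp [hw₁def]
      · field_simp; ring)
    (by
      rw [hK', mem_setOf_eq]
      convert hT using 2
      · field_simp; ring
      · simp [hw₂def])
  rw [hF₁def, hF₂def, mu_unit_compl_preimage G₁ hG₁ l₁ w₁ hw₁,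
    mu_unit_compl_preimage G₂ hG₂ l₂ w₂ hw₂] at key
  have e₁ : l₁ + w₁ = r₁ := by rw [hw₁def]; ring
  have e₂ : l₂ + w₂ = r₂ := by rw [hw₂def]; ring
  rw [e₁, e₂] at key
  have i1 : w₁ * w₂ * (1 - w₁⁻¹ * mu (G₁ ∩ Icc l₁ r₁) + (1 - w₂⁻¹ * mu (G₂ ∩ Icc l₂ r₂)))
      ≤ w₁ * w₂ * 1 := mul_le_mul_of_nonneg_left key (mul_pos hw₁ hw₂).le
  have i2 : w₁ * w₂ * (1 - w₁⁻¹ * mu (G₁ ∩ Icc l₁ r₁) + (1 - w₂⁻¹ * mu (G₂ ∩ Icc l₂ r₂)))
      = 2 * (w₁ * w₂) - mu (G₁ ∩ Icc l₁ r₁) * w₂ - mu (G₂ ∩ Icc l₂ r₂) * w₁ := by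
    field_simp
    ring
  rw [i2] at i1
  linarith

end Vale.Agent.Lib.Helper4.Bang
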